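import Vale.Agent.Lib.P154Anti.Cert.D12.Table0
import Vale.Agent.Lib.P154Anti.Cert.D12.Masses

namespace Vale.Agent.Lib.P154Anti.Cert.D12

open Vale.Agent.Lib.P154Anti

theorem L10 : lvlOK3 cfg par tblI0 tblE0 vE vc Q10 17590687498887 Q11 = true := by decide +kernel

theorem L11 : lvlOK3 cfg par tblI0 tblE0 vE vc Q11 17590850917086 Q12 = true := by decide +kernel

theorem L12 : lvlOK3 cfg par tblI0 tblE0 vE vc Q12 17590872332869 Q13 = true := by decide +kernel

theorem L13 : lvlOK3 cfg par tblI0 tblE0 vE vc Q13 17590718383458 Q14 = true := by decide +kernel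

theorem L14 : lvlOK3 cfg par tblI0 tblE0 vE vc Q14 17590585793578 Q15 = true := by decide +kernel

theorem L15 : lvlOK3 cfg par tblI0 tblE0 vE vc Q15 17590769517532 Q16 = true := by decide +kernel

theorem L16 : lvlOK3 cfg par tblI0 tblE0 vE vc Q16 17590873078959 Q17 = true := by decide +kernel

theorem L17 : lvlOK3 cfg par tblI0 tblE0 vE vc Q17 17590942072902 Q18 = true := by decide +kernel

theorem L18 : lvlOK3 cfg par tblI0 tblE0 vE vc Q18 17591095872425 Q19 = true := by decide +kernel

theorem L19 : lvlOK3 cfg par tblI0 tblE0 vE vc Q19 17590888953656 Q20 = true := by decide +kernel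

end Vale.Agent.Lib.P154Anti.Cert.D12
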